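import Vale.Agent.P129.H630.Rho

/-!
# P129, part C': coding of special sequences

A node is a triple `(φ, w, p)`: a finitely supported rational functional, the index of its weight,
and a parameter. A special sequence of length `k` is given by the first `k` values of a function
`s : ℕ → Nd ι`; its supports are successive, the weight `w` of the node number `j` is
`sigma (code F s j)`, where the code of the first `j` nodes consists of their weights, parameters
and the values of the functionals on the increasing enumeration of the finite set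
`dom F s j = F p (max supp φ)` (`φ`, `p` of the node number `j - 1`).
-/

namespace Vale.Agent.P129.H853

open H630

variable {ι : Type*} [LinearOrder ι]

/-- a node of a special sequence: functional, weight index, parameter -/
structure Nd (ι : Type*) where
  /-- the functional -/
  φ : ι →₀ ℚ
  /-- the index of the weight -/
  w : ℕ
  /-- the parameter -/
  p : ℕ

/-- the values of `φ` on the increasing enumeration of `D` -/
noncomputable def vals (D : Finset ι) (φ : ι →₀ ℚ) : List ℚ := (D.sort (· ≤ ·)).map φ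

/-- the set `F p (max supp φ)` of a node -/
noncomputable def ndom (F : ℕ → ι → Finset ι) (n : Nd ι) : Finset ι :=
  if h : n.φ.support.Nonempty then F n.p (n.φ.support.max' h) else ∅

/-- the finite set on which the first `k` nodes live -/
noncomputable def dom (F : ℕ → ι → Finset ι) (s : ℕ → Nd ι) : ℕ → Finset ι
  | 0 => ∅
  | k + 1 => ndom F (s k)

/-- the code of the first `k` nodes -/
noncomputable def code (F : ℕ → ι → Finset ι) (s : ℕ → Nd ι) (k : ℕ) : List (List ℚ × ℕ × ℕ) :=
  (List.range k).map fun j => (vals (dom F s k) (s j).φ, (s j).w, (s j).p)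

/-- the coding function -/
noncomputable def sigma (c : List (List ℚ × ℕ × ℕ)) : ℕ :=
  Nat.pair (Encodable.encode c) (c.map fun x => x.2.2).sum + 1

theorem sigma_injective : Function.Injective sigma := by
  intro c c' h
  have h1 : Nat.pair (Encodable.encode c) (c.map fun x => x.2.2).sum =
      Nat.pair (Encodable.encode c') (c'.map fun x => x.2.2).sum := Nat.succ.inj h
  exact Encodable.encode_injective (Nat.pair_eq_pair.1 h1).1

theorem lt_sigma {c : List (List ℚ × ℕ × ℕ)} {x : List ℚ × ℕ × ℕ} (hx : x ∈ c) :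
    x.2.2 < sigma c := by
  have h1 : x.2.2 ≤ (c.map fun x => x.2.2).sum :=
    List.single_le_sum (fun _ _ => Nat.zero_le _) _ (List.mem_map.2 ⟨x, hx, rfl⟩)
  exact Nat.lt_succ_of_le (h1.trans (Nat.right_le_pair _ _))

theorem sigma_pos (c : List (List ℚ × ℕ × ℕ)) : 0 < sigma c := Nat.succ_pos _

/-- `φ < ψ`: the support of `φ` lies to the left of the support of `ψ` -/
def Bef (φ ψ : ι →₀ ℚ) : Prop := ∀ ξ ∈ φ.support, ∀ η ∈ ψ.support, ξ < η

/-- The node number `j` of `s` is admissible after the previous ones. -/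
structure Adm (F : ℕ → ι → Finset ι) (s : ℕ → Nd ι) (j : ℕ) : Prop where
  ne : (s j).φ ≠ 0
  bef : ∀ i < j, Bef (s i).φ (s j).φ
  w_eq : (s j).w = sigma (code F s j)
  w_le : (s j).w ≤ (s j).p
  p_le : ∀ i < j, (s i).p ≤ (s j).p
  mem : ∀ i ≤ j, ∀ i' ≤ j, ∀ ξ ∈ (s i).φ.support, ∀ η ∈ (s i').φ.support, ξ ≤ η → ξ ∈ F (s j).p η

/-- the first `k` nodes of `s` form a special sequence (coding conditions only) -/
def Coded (F : ℕ → ι → Finset ι) (s : ℕ → Nd ι) (k : ℕ) : Prop := ∀ j < k, Adm F s j

/-- all initial parts of `s` are special -/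
def InfCoded (F : ℕ → ι → Finset ι) (s : ℕ → Nd ι) : Prop := ∀ j, Adm F s j

variable {F : ℕ → ι → Finset ι} {s s' : ℕ → Nd ι} {j k k' : ℕ}

theorem Coded.mono (h : Coded F s k) (hjk : j ≤ k) : Coded F s j := fun i hi => h i (by omega)

theorem InfCoded.coded (h : InfCoded F s) (k : ℕ) : Coded F s k := fun j _ => h j

theorem length_code (s : ℕ → Nd ι) (k : ℕ) : (code F s k).length = k := by simp [code]

theorem dom_congr (h : ∀ i < k, s i = s' i) : dom F s k = dom F s' k := by
  cases k with
  | zero => rfl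
  | succ k => simp only [dom, h k (Nat.lt_succ_self k)]

theorem code_congr (h : ∀ i < k, s i = s' i) : code F s k = code F s' k := by
  unfold code
  refine List.map_congr_left fun j hj => ?_
  rw [dom_congr h, h j (List.mem_range.1 hj)]

theorem Adm.congr (h : Adm F s j) (he : ∀ i ≤ j, s i = s' i) : Adm F s' j where
  ne := by rw [← he j le_rfl]; exact h.ne
  bef i hi := by rw [← he j le_rfl, ← he i hi.le]; exact h.bef i hi
  w_eq := by rw [← he j le_rfl, h.w_eq, code_congr fun i hi => he i (le_of_lt hi)]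
  w_le := by rw [← he j le_rfl]; exact h.w_le
  p_le i hi := by rw [← he j le_rfl, ← he i hi.le]; exact h.p_le i hi
  mem i hi i' hi' := by
    rw [← he j le_rfl, ← he i hi, ← he i' hi']
    exact h.mem i hi i' hi'

theorem Coded.congr (h : Coded F s k) (he : ∀ i < k, s i = s' i) : Coded F s' k := fun j hj =>
  (h j hj).congr fun i hi => he i (by omega)

/-! ### equality of codes -/

theorem code_getElem (i : ℕ) (hi : i < (code F s k).length) :
    (code F s k)[i] = (vals (dom F s k) (s i).φ, (s i).w, (s i).p) := by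
  simp [code]

/-- Equal codes: same length, and the same weights, parameters, and collapsed functionals. -/
theorem code_eq (h : code F s k = code F s' k') : k = k' ∧ ∀ i < k,
    (s i).w = (s' i).w ∧ (s i).p = (s' i).p ∧
      vals (dom F s k) (s i).φ = vals (dom F s' k') (s' i).φ := by
  have hk : k = k' := by
    have := congrArg List.length h
    rwa [length_code, length_code] at this
  subst hk
  refine ⟨rfl, fun i hi => ?_⟩
  have h1 : (code F s k)[i]'(by rw [length_code]; exact hi) =
      (code F s' k)[i]'(by rw [length_code]; exact hi) := by simp only [h]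
  rw [code_getElem, code_getElem, Prod.mk.injEq, Prod.mk.injEq] at h1
  exact ⟨h1.2.1, h1.2.2, h1.1⟩

/-- **Fact 1.** If two special sequences share a weight index, then it stands at the same position,
and the previous weights and parameters and all previous codes are the same. -/
theorem Coded.of_w_eq (h : Coded F s k) (h' : Coded F s' k') {j' : ℕ} (hj : j < k) (hj' : j' < k')
    (hw : (s j).w = (s' j').w) : j = j' ∧ code F s j = code F s' j ∧
      ∀ i < j, (s i).w = (s' i).w ∧ (s i).p = (s' i).p ∧ code F s i = code F s' i := by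
  have h1 : code F s j = code F s' j' := sigma_injective (by
    rw [← (h j hj).w_eq, ← (h' j' hj').w_eq, hw])
  obtain ⟨rfl, h2⟩ := code_eq h1
  refine ⟨rfl, h1, fun i hi => ⟨(h2 i hi).1, (h2 i hi).2.1, sigma_injective ?_⟩⟩
  rw [← (h i (by omega)).w_eq, ← (h' i (by omega)).w_eq]
  exact (h2 i hi).1

/-! ### weights and parameters increase -/

theorem Coded.p_lt_w (h : Coded F s k) {i : ℕ} (hij : i < j) (hj : j < k) : (s i).p < (s j).w := by
  rw [(h j hj).w_eq]
  exact lt_sigma (x := (vals (dom F s j) (s i).φ, (s i).w, (s i).p))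
    (List.mem_map.2 ⟨i, List.mem_range.2 hij, rfl⟩)

theorem Coded.w_lt_w (h : Coded F s k) {i : ℕ} (hij : i < j) (hj : j < k) : (s i).w < (s j).w :=
  ((h i (hij.trans hj)).w_le).trans_lt (h.p_lt_w hij hj)

theorem Coded.w_inj (h : Coded F s k) {i : ℕ} (hi : i < k) (hj : j < k)
    (hw : (s i).w = (s j).w) : i = j := by
  rcases lt_trichotomy i j with h1 | h1 | h1
  · have := h.w_lt_w h1 hj; omega
  · exact h1
  · have := h.w_lt_w h1 hi; omega

theorem Coded.le_w (h : Coded F s k) (hj : j < k) : j < (s j).w := by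
  induction j with
  | zero => rw [(h 0 hj).w_eq]; exact sigma_pos _
  | succ j ih =>
    have h1 := ih (by omega)
    have h2 : (s j).w < (s (j + 1)).w := h.w_lt_w (Nat.lt_succ_self j) hj
    omega

theorem Coded.bef (h : Coded F s k) {i : ℕ} (hij : i < j) (hj : j < k) :
    Bef (s i).φ (s j).φ := (h j hj).bef i hij

/-! ### the sets `dom` -/

theorem ndom_of_ne (n : Nd ι) (h : n.φ.support.Nonempty) :
    ndom F n = F n.p (n.φ.support.max' h) := by rw [ndom, dif_pos h]

omit [LinearOrder ι] in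
theorem support_nonempty {φ : ι →₀ ℚ} (h : φ ≠ 0) : φ.support.Nonempty :=
  Finsupp.support_nonempty_iff.2 h

/-- The supports of the first `j` nodes are contained in `dom F s j`. -/
theorem Coded.mem_dom (h : Coded F s k) (hj : j ≤ k) {i : ℕ} (hi : i < j) {ξ : ι}
    (hξ : ξ ∈ (s i).φ.support) : ξ ∈ dom F s j := by
  obtain ⟨j, rfl⟩ : ∃ l, j = l + 1 := ⟨j - 1, by omega⟩
  have hA := h j (by omega)
  have hne := support_nonempty hA.ne
  rw [dom, ndom_of_ne _ hne]
  refine hA.mem i (by omega) j le_rfl ξ hξ _ (Finset.max'_mem _ hne) ?_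
  rcases (show i ≤ j by omega).eq_or_lt with rfl | h1
  · exact Finset.le_max' _ _ hξ
  · exact (hA.bef i h1 ξ hξ _ (Finset.max'_mem _ hne)).le

variable (hF : Coherent F)
include hF

/-- Below an element `ξ` of `dom F s (j + 1)`, this set is `F p ξ`. -/
theorem filter_dom {ξ : ι} (hξ : ξ ∈ dom F s (j + 1)) :
    (dom F s (j + 1)).filter (· ≤ ξ) = F (s j).p ξ := by
  rw [dom] at hξ ⊢
  by_cases h : (s j).φ.support.Nonempty
  · rw [ndom_of_ne _ h] at hξ ⊢
    exact (hF.coh _ _ _ hξ).symm
  · rw [ndom, dif_neg h] at hξ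
    exact absurd hξ (Finset.notMem_empty _)

/-- `dom` is closed downwards in the sense of `F`. -/
theorem dom_closed {ξ η : ι} (hη : η ∈ dom F s (j + 1)) (hξ : ξ ∈ F (s j).p η) :
    ξ ∈ dom F s (j + 1) := by
  rw [← filter_dom hF hη] at hξ
  exact (Finset.mem_filter.1 hξ).1

omit hF in
theorem sort_filter (D : Finset ι) (ξ : ι) : D.sort (· ≤ ·) =
    (D.filter (· ≤ ξ)).sort (· ≤ ·) ++ (D.filter fun ζ => ¬ ζ ≤ ξ).sort (· ≤ ·) := by
  refine List.Perm.eq_of_pairwise (le := (· ≤ ·)) (fun a b _ _ h1 h2 => le_antisymm h1 h2)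
    (Finset.pairwise_sort _ _) ?_ ?_
  · rw [List.pairwise_append]
    refine ⟨Finset.pairwise_sort _ _, Finset.pairwise_sort _ _, fun a ha b hb => ?_⟩
    rw [Finset.mem_sort, Finset.mem_filter] at ha hb
    exact ha.2.trans (not_le.1 hb.2).le
  · rw [List.perm_ext_iff_of_nodup (Finset.sort_nodup _ _)]
    · intro a
      simp only [Finset.mem_sort, List.mem_append, Finset.mem_filter]
      tauto
    · rw [List.nodup_append]
      refine ⟨Finset.sort_nodup _ _, Finset.sort_nodup _ _, fun a ha b hb hab => ?_⟩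
      rw [Finset.mem_sort, Finset.mem_filter] at ha hb
      exact hb.2 (hab ▸ ha.2)

omit hF in
/-- Collapsed functionals determine the functional below a common point of coherent sets. -/
theorem vals_eq {D D' : Finset ι} {ξ : ι} (hD : D.filter (· ≤ ξ) = D'.filter (· ≤ ξ))
    {φ φ' : ι →₀ ℚ} (h : vals D φ = vals D' φ') : ∀ ζ ∈ D, ζ ≤ ξ → φ ζ = φ' ζ := by
  intro ζ hζ hle
  rw [vals, vals, sort_filter D ξ, sort_filter D' ξ, ← hD, List.map_append, List.map_append] at h
  have h1 := (List.append_inj h (by simp)).1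
  have h2 := List.map_inj_left.1 h1
  exact h2 ζ (by rw [Finset.mem_sort, Finset.mem_filter]; exact ⟨hζ, hle⟩)

/-- **Fact 2.** If the codes of the first `j` nodes are the same and `ξ` lies in both sets `dom`,
then the functionals of the first `j` nodes agree on `{ζ | ζ ≤ ξ}`. -/
theorem Coded.agree (h : Coded F s k) (h' : Coded F s' k') (hj : j ≤ k) (hj' : j ≤ k')
    (hc : code F s j = code F s' j) {ξ : ι} (hξ : ξ ∈ dom F s j) (hξ' : ξ ∈ dom F s' j) :
    ∀ i < j, ∀ ζ ≤ ξ, (s i).φ ζ = (s' i).φ ζ := by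
  intro i hi ζ hζ
  obtain ⟨l, rfl⟩ : ∃ l, j = l + 1 := ⟨j - 1, by omega⟩
  obtain ⟨-, h1⟩ := code_eq hc
  have hp : (s l).p = (s' l).p := (h1 l (by omega)).2.1
  have hD : (dom F s (l + 1)).filter (· ≤ ξ) = (dom F s' (l + 1)).filter (· ≤ ξ) := by
    rw [filter_dom hF hξ, filter_dom hF hξ', hp]
  by_cases hζD : ζ ∈ dom F s (l + 1)
  · exact vals_eq hD (h1 i hi).2.2 ζ hζD hζ
  · have hζD' : ζ ∉ dom F s' (l + 1) := by
      intro hh
      have : ζ ∈ (dom F s' (l + 1)).filter (· ≤ ξ) := Finset.mem_filter.2 ⟨hh, hζ⟩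
      rw [← hD] at this
      exact hζD (Finset.mem_filter.1 this).1
    have e1 : (s i).φ ζ = 0 := by
      by_contra hne
      exact hζD (h.mem_dom hj hi (Finsupp.mem_support_iff.2 hne))
    have e2 : (s' i).φ ζ = 0 := by
      by_contra hne
      exact hζD' (h'.mem_dom hj' hi (Finsupp.mem_support_iff.2 hne))
    rw [e1, e2]

/-- The form of Fact 2 which is used: `ξ` and `ξ'` lie in the supports of nodes before the
position `j + 1` of the two sequences, and `ξ ∈ F p ξ'` for the parameter `p` of the position `j`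
(i.e. `rho ξ ξ' ≤ p`); then the functionals agree up to `ξ`. -/
theorem Coded.agree_of_mem (h : Coded F s k) (h' : Coded F s' k') (hj : j < k) (hj' : j < k')
    (hc : code F s (j + 1) = code F s' (j + 1)) {i i' : ℕ} (hi : i ≤ j) (hi' : i' ≤ j) {ξ ξ' : ι}
    (hξ : ξ ∈ (s i).φ.support) (hξ' : ξ' ∈ (s' i').φ.support) (hm : ξ ∈ F (s j).p ξ') :
    ∀ i ≤ j, ∀ ζ ≤ ξ, (s i).φ ζ = (s' i).φ ζ := by
  have hp : (s j).p = (s' j).p := ((code_eq hc).2 j (Nat.lt_succ_self j)).2.1
  intro l hl
  refine h.agree hF h' (by omega) (by omega) hc (ξ := ξ) (h.mem_dom (by omega) (by omega) hξ) ?_ l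
    (by omega)
  exact dom_closed hF (h'.mem_dom (by omega) (by omega) hξ') (hp ▸ hm)

omit hF in
/-- If the parameters at the position `j` are different, then the two sequences have no common
weight index at positions `> j`. -/
theorem Coded.w_ne (h : Coded F s k) (h' : Coded F s' k') (hp : (s j).p ≠ (s' j).p) {i i' : ℕ}
    (hi : i < k) (hi' : i' < k') (hji : j < i) : (s i).w ≠ (s' i').w := fun hw =>
  hp ((h.of_w_eq h' hi hi' hw).2.2 j hji).2.1

omit hF in
/-- Weight indices of different positions are different. -/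
theorem Coded.w_ne_of_ne (h : Coded F s k) (h' : Coded F s' k') {i i' : ℕ}
    (hi : i < k) (hi' : i' < k') (hii : i ≠ i') : (s i).w ≠ (s' i').w := fun hw =>
  hii (h.of_w_eq h' hi hi' hw).1

omit hF in
/-- If two infinite special sequences have a common weight index at the position `j`, then also at
all positions before. -/
theorem InfCoded.w_eq_of_le (h : InfCoded F s) (h' : InfCoded F s') {i : ℕ} (hij : i ≤ j)
    (hw : (s j).w = (s' j).w) : (s i).w = (s' i).w := by
  rcases hij.eq_or_lt with rfl | h1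
  · exact hw
  · exact (((h.coded (j + 1)).of_w_eq (h'.coded (j + 1)) (Nat.lt_succ_self j)
      (Nat.lt_succ_self j) hw).2.2 i h1).1

/-- **Tree property.** Two infinite special sequences with the same weights whose supports are
cofinal in each other coincide. -/
theorem InfCoded.eq_of_w_eq (h : InfCoded F s) (h' : InfCoded F s')
    (hw : ∀ j, (s j).w = (s' j).w)
    (hco : ∀ i, ∀ ξ ∈ (s i).φ.support, ∃ i', ∃ ξ' ∈ (s' i').φ.support, ξ ≤ ξ')
    (hco' : ∀ i, ∀ ξ ∈ (s' i).φ.support, ∃ i', ∃ ξ' ∈ (s i').φ.support, ξ ≤ ξ') (j : ℕ) :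
    s j = s' j := by
  have hcode : ∀ j, code F s j = code F s' j := fun j => sigma_injective (by
    rw [← (h j).w_eq, ← (h' j).w_eq, hw j])
  have hp : ∀ j, (s j).p = (s' j).p := fun j =>
    ((code_eq (hcode (j + 1))).2 j (Nat.lt_succ_self j)).2.1
  -- a point `ξ` of the support of `s` beyond the supports of the nodes number `j`
  obtain ⟨ξ0, hξ0⟩ := support_nonempty (h' (j + 1)).ne
  obtain ⟨i1, ξ1, hξ1, hle1⟩ := hco' (j + 1) ξ0 hξ0
  obtain ⟨i, ξ, hξ, hb, hb'⟩ : ∃ i, ∃ ξ ∈ (s i).φ.support,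
      (∀ ζ ∈ (s j).φ.support, ζ ≤ ξ) ∧ (∀ ζ ∈ (s' j).φ.support, ζ ≤ ξ) := by
    obtain ⟨ξ2, hξ2⟩ := support_nonempty (h (j + 1)).ne
    rcases le_total ξ1 ξ2 with h3 | h3
    · exact ⟨j + 1, ξ2, hξ2, fun ζ hζ => ((h (j + 1)).bef j (Nat.lt_succ_self j) ζ hζ ξ2 hξ2).le,
        fun ζ hζ => ((h' (j + 1)).bef j (Nat.lt_succ_self j) ζ hζ ξ0 hξ0).le.trans
          (hle1.trans h3)⟩
    · exact ⟨i1, ξ1, hξ1,
        fun ζ hζ => ((h (j + 1)).bef j (Nat.lt_succ_self j) ζ hζ ξ2 hξ2).le.trans h3,
        fun ζ hζ => ((h' (j + 1)).bef j (Nat.lt_succ_self j) ζ hζ ξ0 hξ0).le.trans hle1⟩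
  obtain ⟨i', ξ', hξ', hle⟩ := hco i ξ hξ
  obtain ⟨n, hn⟩ := hF.exists_mem ξ' ξ hle
  -- a position `l` beyond `i`, `i'`, `j` with a large parameter
  set l := max (max i i') (max j n) with hl
  have hpl : n ≤ (s l).p := by
    have h1 := (h.coded (l + 1)).le_w (Nat.lt_succ_self l)
    have h2 := (h l).w_le
    omega
  have hag := (h.coded (l + 1)).agree_of_mem hF (h'.coded (l + 1)) (Nat.lt_succ_self l)
    (Nat.lt_succ_self l) (hcode (l + 1)) (i := i) (i' := i') (by omega) (by omega) hξ hξ'
    (hF.mem_mono hn hpl) j (by omega)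
  have hφ : (s j).φ = (s' j).φ := by
    ext ζ
    by_cases hζ : ζ ≤ ξ
    · exact hag ζ hζ
    · have e1 : (s j).φ ζ = 0 := by
        by_contra hne
        exact hζ (hb ζ (Finsupp.mem_support_iff.2 hne))
      have e2 : (s' j).φ ζ = 0 := by
        by_contra hne
        exact hζ (hb' ζ (Finsupp.mem_support_iff.2 hne))
      rw [e1, e2]
  have h1 := hw j
  have h2 := hp j
  cases hs : s j
  cases hs' : s' j
  rw [hs, hs'] at hφ h1 h2
  simp only at hφ h1 h2
  rw [hφ, h1, h2]

/-! ### existence of parameters -/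

/-- For a finite set `S` and a number `n` there is `p ≥ n` with `ξ ∈ F p η` for all `ξ ≤ η` in
`S`. -/
theorem exists_param (S : Finset ι) (n : ℕ) :
    ∃ p, n ≤ p ∧ ∀ ξ ∈ S, ∀ η ∈ S, ξ ≤ η → ξ ∈ F p η := by
  classical
  refine ⟨n + ∑ ξ ∈ S, ∑ η ∈ S, rho F ξ η, Nat.le_add_right _ _, fun ξ hξ η hη hle => ?_⟩
  refine (hF.rho_le_iff hle).1 ?_
  have h1 : rho F ξ η ≤ ∑ η ∈ S, rho F ξ η :=
    Finset.single_le_sum (f := fun η => rho F ξ η) (fun _ _ => Nat.zero_le _) hη
  have h2 : ∑ η ∈ S, rho F ξ η ≤ ∑ ξ ∈ S, ∑ η ∈ S, rho F ξ η :=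
    Finset.single_le_sum (f := fun ξ => ∑ η ∈ S, rho F ξ η) (fun _ _ => Nat.zero_le _) hξ
  omega

/-- Extension of a special sequence by a functional `φ`: all sufficiently large parameters `p` can
be used. -/
theorem exists_extend (h : Coded F s k) {φ : ι →₀ ℚ} (hφ : φ ≠ 0)
    (hb : ∀ i < k, Bef (s i).φ φ) (n : ℕ) :
    ∃ p0, n ≤ p0 ∧ ∀ p, p0 ≤ p → Coded F (Function.update s k ⟨φ, sigma (code F s k), p⟩) (k + 1) := by
  classical
  obtain ⟨p0, hp0, hp⟩ := exists_param hF
    (((Finset.range k).biUnion fun i => (s i).φ.support) ∪ φ.support)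
    (n + sigma (code F s k) + ∑ i ∈ Finset.range k, (s i).p)
  refine ⟨p0, by omega, fun p hp0p => ?_⟩
  have hlt : ∀ i < k, Function.update s k ⟨φ, sigma (code F s k), p⟩ i = s i := fun i hi =>
    Function.update_of_ne (by omega) _ _
  have hk : Function.update s k ⟨φ, sigma (code F s k), p⟩ k = ⟨φ, sigma (code F s k), p⟩ :=
    Function.update_self _ _ _
  intro j hj
  rcases (show j ≤ k by omega).eq_or_lt with rfl | hj
  · have hps : ∀ i < j, (s i).p ≤ p := fun i hi => by
      have := Finset.single_le_sum (f := fun i => (s i).p) (fun _ _ => Nat.zero_le _)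
        (Finset.mem_range.2 hi)
      omega
    have hsub : ∀ i ≤ j, ∀ ξ ∈
        (Function.update s j ⟨φ, sigma (code F s j), p⟩ i).φ.support,
        ξ ∈ ((Finset.range j).biUnion fun i => (s i).φ.support) ∪ φ.support := by
      intro i hi ξ hξ
      rcases hi.eq_or_lt with rfl | hi
      · rw [hk] at hξ
        exact Finset.mem_union_right _ hξ
      · rw [hlt i hi] at hξ
        exact Finset.mem_union_left _ (Finset.mem_biUnion.2 ⟨i, Finset.mem_range.2 hi, hξ⟩)
    refine ⟨?_, ?_, ?_, ?_, ?_, ?_⟩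
    · rw [hk]; exact hφ
    · intro i hi
      rw [hk, hlt i hi]
      exact hb i hi
    · rw [hk]
      exact congrArg sigma (code_congr fun i hi => (hlt i hi).symm)
    · rw [hk]
      show sigma (code F s j) ≤ p
      omega
    · intro i hi
      rw [hk, hlt i hi]
      exact hps i hi
    · intro i hi i' hi' ξ hξ η hη hle
      have h1 := hp ξ (hsub i hi ξ hξ) η (hsub i' hi' η hη) hle
      rw [hk]
      exact hF.mem_mono h1 hp0p
  · exact (h j hj).congr fun i hi => (hlt i (by omega)).symm

end Vale.Agent.P129.H853
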